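import Vale.Agent.Lib.P328B.HBMix
import Vale.Agent.Lib.P328.Resamp
import Vale.Agent.Lib.P328.SampC

/-!
P328: almost uniform sampling of contingency tables with arbitrary margins, in polynomial time.
-/

namespace Vale.Agent.Results.P328.ContingencyTables

open Vale.Agent.P328 Finset

/-- (I) For all dimensions and all margins the heat-bath chain on two by two blocks is a Markov
chain which, from every start, is within `ε` of the uniform law in total variation as soon as the
number of steps is at least a fixed power of `m + n + log (2 + N) + log (1 / ε)`.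

(II) The sampler which starts at the northwest corner table and makes `T` steps, driven by
independent uniform random words of `T` bits, where `T` is a fixed power of
`L = m + n + size N + e`, always outputs a table, and its law is within `2 ^ (-e)` of uniform. -/
theorem result :
    (∃ A : ℕ, ∀ (m n : ℕ), 0 < m → 0 < n → ∀ (r : Fin m → ℕ) (c : Fin n → ℕ),
      (∀ X Y : Tab r c, 0 ≤ HB r c X Y) ∧ (∀ X : Tab r c, ∑ Y, HB r c X Y = 1) ∧
      ∀ (ε : ℝ), 0 < ε → ε ≤ 1 → ∀ t : ℕ,
        ((m : ℝ) + n + Real.log (2 + (∑ i, r i : ℕ)) + Real.log (1 / ε)) ^ A ≤ t →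
        ∀ X : Tab r c,
          (1 / 2) * ∑ Y, |(HB r c ^ t) X Y - 1 / (Fintype.card (Tab r c) : ℝ)| ≤ ε) ∧
    ∃ A : ℕ, ∀ (m n : ℕ) (hm : 0 < m) (hn : 0 < n) (r : Fin m → ℕ) (c : Fin n → ℕ),
      ∑ i, r i = ∑ a, c a → ∀ e L T : ℕ, L = m + n + Nat.size (∑ i, r i) + e → T = L ^ A →
      (∀ w : Fin T → Fin 6 → Fin (2 ^ T),
        (∀ i, ∑ a, sampleRun hm hn r c (List.ofFn fun t j => (w t j : ℕ)) i a = r i) ∧
        ∀ a, ∑ i, sampleRun hm hn r c (List.ofFn fun t j => (w t j : ℕ)) i a = c a) ∧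
      (1 / 2) * ∑ Y : Tab r c, |((univ.filter fun w : Fin T → Fin 6 → Fin (2 ^ T) =>
        sampleRun hm hn r c (List.ofFn fun t j => (w t j : ℕ)) = Y.1).card : ℝ) /
          (2 ^ T) ^ (6 * T) - 1 / (Fintype.card (Tab r c) : ℝ)| ≤ 1 / 2 ^ e := by
  refine ⟨⟨534, fun m n hm hn r c => ⟨fun X Y => HB_nonneg X Y, fun X => HB_row hm hn X,
    fun ε hε hε1 t ht X => P328B.HB_mixing534 m n hm hn r c ε hε hε1 t ht X⟩⟩, 2 * 534 + 4, ?_⟩
  intro m n hm hn r c hrc e L T hL hT
  exact sampler_of_mix (fun m n => resample_mem) (fun m n => resample_law)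
    (fun m n r c h => nwTab_mem r c h) (fun m n hm hn r c X => HB_row hm hn X)
    (fun m n r c X Y => HB_nonneg X Y) 534
    (fun m n hm hn r c ε h0 h1 t ht X => P328B.HB_mixing534 m n hm hn r c ε h0 h1 t ht X)
    m n hm hn r c hrc e L T hL hT

end Vale.Agent.Results.P328.ContingencyTables
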